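import Mathlib.Analysis.SpecialFunctions.Log.Basic
import Mathlib.Analysis.SpecialFunctions.Log.Deriv
import Mathlib.Analysis.SpecialFunctions.Pow.Real
import Mathlib.Data.Nat.Log
import Mathlib.Analysis.Complex.ExponentialBounds
import Mathlib.Tactic

/-!
# Constants of the square root theorem (helper105)

`Red.ll n` is `Nat.log 2 (Nat.log 2 n + 1)`; everything is stated with this expression.
-/

namespace Vale.Agent.P235.R2.H105.Const

/-- number of rounds for `b` points -/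
def rounds (b : ℕ) : ℕ := 2 * (Nat.log 2 b + 1)

/-- after `rounds b` rounds which keep at most `2/3` of the points no point is left -/
theorem rounds_ok (b : ℕ) : 2 ^ rounds b * b < 3 ^ rounds b := by
  unfold rounds
  have h1 : b < 2 ^ (Nat.log 2 b + 1) := Nat.lt_pow_succ_log_self (by norm_num) b
  rw [pow_mul, pow_mul]
  have h2 : (8 : ℕ) ^ (Nat.log 2 b + 1) ≤ 9 ^ (Nat.log 2 b + 1) :=
    Nat.pow_le_pow_left (by norm_num) _
  have h3 : ((2 : ℕ) ^ 2) ^ (Nat.log 2 b + 1) * 2 ^ (Nat.log 2 b + 1)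
      = 8 ^ (Nat.log 2 b + 1) := by
    rw [← mul_pow]
    norm_num
  have h4 : 0 < ((2 : ℕ) ^ 2) ^ (Nat.log 2 b + 1) := by positivity
  calc ((2 : ℕ) ^ 2) ^ (Nat.log 2 b + 1) * b
      < ((2 : ℕ) ^ 2) ^ (Nat.log 2 b + 1) * 2 ^ (Nat.log 2 b + 1) :=
        Nat.mul_lt_mul_of_pos_left h1 h4
    _ = 8 ^ (Nat.log 2 b + 1) := h3
    _ ≤ 9 ^ (Nat.log 2 b + 1) := h2
    _ = (3 ^ 2) ^ (Nat.log 2 b + 1) := by norm_num

/-- the same for every smaller number -/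
theorem rounds_ok' {c b : ℕ} (h : c ≤ b) : 2 ^ rounds b * c < 3 ^ rounds b :=
  (Nat.mul_le_mul_left _ h).trans_lt (rounds_ok b)

theorem rounds_mono {a b : ℕ} (h : a ≤ b) : rounds a ≤ rounds b := by
  unfold rounds
  have := Nat.log_mono_right (b := 2) h
  omega

theorem rounds_pos (b : ℕ) : 1 ≤ rounds b := by
  unfold rounds
  omega

/-- `log x ≤ (⌊log₂ x⌋ + 1) log 2` -/
theorem log_le_natLog (m : ℕ) : Real.log (m : ℝ) ≤ ((Nat.log 2 m : ℝ) + 1) * Real.log 2 := by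
  rcases Nat.eq_zero_or_pos m with rfl | hm
  · simp only [Nat.cast_zero, Real.log_zero]
    positivity
  · have h1 : m < 2 ^ (Nat.log 2 m + 1) := Nat.lt_pow_succ_log_self (by norm_num) m
    have h2 : (m : ℝ) ≤ (2 : ℝ) ^ (Nat.log 2 m + 1) := by exact_mod_cast h1.le
    have h3 := Real.log_le_log (by exact_mod_cast hm) h2
    rw [Real.log_pow] at h3
    push_cast at h3
    exact h3

/-- `⌊log₂ b⌋ log 2 ≤ log (b + 2)` -/
theorem natLog_le (b : ℕ) : (Nat.log 2 b : ℝ) * Real.log 2 ≤ Real.log ((b : ℝ) + 2) := by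
  have h1 : (2 : ℕ) ^ Nat.log 2 b ≤ b + 2 := by
    rcases Nat.eq_zero_or_pos b with rfl | hb
    · simp
    · exact (Nat.pow_log_le_self 2 hb.ne').trans (by omega)
  have h2 : (2 : ℝ) ^ Nat.log 2 b ≤ (b : ℝ) + 2 := by exact_mod_cast h1
  have h3 := Real.log_le_log (by positivity) h2
  rwa [Real.log_pow] at h3

theorem log2_lo : (0.69 : ℝ) < Real.log 2 := by
  have := Real.log_two_gt_d9
  linarith

theorem log2_hi : Real.log 2 < (0.7 : ℝ) := by
  have := Real.log_two_lt_d9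
  linarith

/-- `rounds b ≤ 6 log (b + 2)` -/
theorem rounds_le (b : ℕ) : (rounds b : ℝ) ≤ 6 * Real.log ((b : ℝ) + 2) := by
  have h1 := natLog_le b
  have h2 := log2_lo
  have h3 : Real.log 2 ≤ Real.log ((b : ℝ) + 2) :=
    Real.log_le_log (by norm_num) (by have : (0 : ℝ) ≤ b := Nat.cast_nonneg b; linarith)
  have h0 : (0 : ℝ) ≤ (Nat.log 2 b : ℝ) := Nat.cast_nonneg _
  unfold rounds
  push_cast
  have h4 : (Nat.log 2 b : ℝ) * 0.69 ≤ (Nat.log 2 b : ℝ) * Real.log 2 :=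
    mul_le_mul_of_nonneg_left h2.le h0
  nlinarith

/-- `sqrt (c * rounds b) ≤ sqrt (6 c) * sqrt (log (b + 2))`; for `c = 4` this is `5 sqrt ..` -/
theorem sqrt_rounds_le (b : ℕ) {c : ℝ} (hc : 0 ≤ c) :
    Real.sqrt (c * rounds b) ≤ Real.sqrt (6 * c) * Real.sqrt (Real.log ((b : ℝ) + 2)) := by
  rw [← Real.sqrt_mul (by positivity)]
  refine Real.sqrt_le_sqrt ?_
  have := mul_le_mul_of_nonneg_left (rounds_le b) hc
  linarith

theorem sqrt_four_rounds_le (b : ℕ) :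
    Real.sqrt (4 * rounds b) ≤ 5 * Real.sqrt (Real.log ((b : ℝ) + 2)) := by
  refine (sqrt_rounds_le b (by norm_num)).trans ?_
  refine mul_le_mul_of_nonneg_right ?_ (Real.sqrt_nonneg _)
  rw [show (6 * 4 : ℝ) = 24 by norm_num]
  rw [show (5 : ℝ) = Real.sqrt 25 by
    rw [show (25 : ℝ) = 5 ^ 2 by norm_num, Real.sqrt_sq (by norm_num)]]
  exact Real.sqrt_le_sqrt (by norm_num)

/-- the cast version used by the recursion (`4 * k` rounds as a natural number) -/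
theorem sqrt_four_rounds_le' (b : ℕ) :
    Real.sqrt ((4 * rounds b : ℕ) : ℝ) ≤ 5 * Real.sqrt (Real.log ((b : ℝ) + 2)) := by
  push_cast
  exact sqrt_four_rounds_le b

/-- **double logarithm**: everything which is at most `c (⌊log₂ n⌋ + 1)` has logarithm at most
`(log c + 1) (ll n + 1)` -/
theorem log_le_ll {n : ℕ} {x c : ℝ} (hc : 1 ≤ c) (hx : 0 < x)
    (h : x ≤ c * ((Nat.log 2 n : ℝ) + 1)) :
    Real.log x ≤ (Real.log c + 1) * (((Nat.log 2 (Nat.log 2 n + 1) : ℕ) : ℝ) + 1) := by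
  have h1 := log_le_natLog (Nat.log 2 n + 1)
  push_cast at h1
  have h2 := Real.log_le_log hx h
  have h3 : (0 : ℝ) < (Nat.log 2 n : ℝ) + 1 := by positivity
  rw [Real.log_mul (by linarith) h3.ne'] at h2
  have h4 := log2_hi
  have h5 : 0 ≤ Real.log c := Real.log_nonneg hc
  have h6 : (0 : ℝ) ≤ ((Nat.log 2 (Nat.log 2 n + 1) : ℕ) : ℝ) := Nat.cast_nonneg _
  nlinarith

theorem log12 : Real.log 12 ≤ 3 := by
  have h1 : Real.log 12 ≤ Real.log (2 ^ 4) := Real.log_le_log (by norm_num) (by norm_num)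
  rw [Real.log_pow] at h1
  have := log2_hi
  norm_num at h1
  linarith

/-- **the leaf**: with `k = rounds b`, `b ≤ n`, and at most `3 k` further exceptional vertices
(`m ≤ 3 k + 4`): `log m ≤ 4 (ll n + 1)` -/
theorem log_leaf {b n m : ℕ} (hb : b ≤ n) (hm : m ≤ 3 * rounds b + 4) :
    Real.log (m : ℝ) ≤ 4 * (((Nat.log 2 (Nat.log 2 n + 1) : ℕ) : ℝ) + 1) := by
  have h6 : (0 : ℝ) ≤ ((Nat.log 2 (Nat.log 2 n + 1) : ℕ) : ℝ) := Nat.cast_nonneg _
  rcases Nat.eq_zero_or_pos m with rfl | hm0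
  · simp only [Nat.cast_zero, Real.log_zero]
    positivity
  · have h1 : Nat.log 2 b ≤ Nat.log 2 n := Nat.log_mono_right hb
    have h2 : m ≤ 12 * (Nat.log 2 n + 1) := by
      unfold rounds at hm
      omega
    have h3 : (m : ℝ) ≤ 12 * ((Nat.log 2 n : ℝ) + 1) := by exact_mod_cast h2
    have h4 := log_le_ll (n := n) (x := (m : ℝ)) (c := 12) (by norm_num)
      (by exact_mod_cast hm0) h3
    have h5 := log12
    nlinarith

/-- `ll (2 n) ≤ ll n + 1` -/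
theorem ll_two_mul {m n : ℕ} (h : m ≤ 2 * n) :
    Nat.log 2 (Nat.log 2 m + 1) ≤ Nat.log 2 (Nat.log 2 n + 1) + 1 := by
  have h1 : Nat.log 2 m ≤ Nat.log 2 n + 1 := by
    rcases Nat.eq_zero_or_pos n with rfl | hn
    · have : m = 0 := by omega
      subst this
      simp
    · refine (Nat.log_mono_right h).trans ?_
      rw [mul_comm, Nat.log_mul_base (by norm_num) hn.ne']
  calc Nat.log 2 (Nat.log 2 m + 1) ≤ Nat.log 2 ((Nat.log 2 n + 1) * 2) :=
        Nat.log_mono_right (by omega)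
    _ = Nat.log 2 (Nat.log 2 n + 1) + 1 := Nat.log_mul_base (by norm_num) (by omega)

/-- `sqrt (log (x + 2)) ≤ sqrt (log (b + 2))` for `x ≤ b` -/
theorem sqrt_log_mono {a b : ℕ} (h : a ≤ b) :
    Real.sqrt (Real.log ((a : ℝ) + 2)) ≤ Real.sqrt (Real.log ((b : ℝ) + 2)) := by
  refine Real.sqrt_le_sqrt (Real.log_le_log (by positivity) ?_)
  have : (a : ℝ) ≤ b := by exact_mod_cast h
  linarith

/-- **the leaf constant**: `ll n' + 1 + log (m + 2) ≤ 5 (ll n + 1)` for `n' ≤ n`, `b ≤ n`,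
`m ≤ 3 rounds b + 2` -/
theorem leaf_le {b n n' m : ℕ} (hn : n' ≤ n) (hb : b ≤ n) (hm : m ≤ 3 * rounds b + 2) :
    ((Nat.log 2 (Nat.log 2 n' + 1) : ℕ) : ℝ) + 1 + Real.log ((m : ℝ) + 2)
      ≤ 5 * (((Nat.log 2 (Nat.log 2 n + 1) : ℕ) : ℝ) + 1) := by
  have h1 : Nat.log 2 (Nat.log 2 n' + 1) ≤ Nat.log 2 (Nat.log 2 n + 1) :=
    Nat.log_mono_right (Nat.add_le_add_right (Nat.log_mono_right hn) 1)
  have h2 : ((Nat.log 2 (Nat.log 2 n' + 1) : ℕ) : ℝ) ≤ ((Nat.log 2 (Nat.log 2 n + 1) : ℕ) : ℝ) := by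
    exact_mod_cast h1
  have h3 := log_leaf (m := m + 2) hb (by omega)
  push_cast at h3
  linarith

/-- **total**: leaf constant `K (ll n' + 1 + log (m + 2))` and `4 rounds b` rounds -/
theorem total_le {b n n' m : ℕ} (hn : n' ≤ n) (hb : b ≤ n) (hm : m ≤ 3 * rounds b + 2)
    {K c : ℝ} (hK : 0 ≤ K) (hc : 0 ≤ c) :
    c * (K * (((Nat.log 2 (Nat.log 2 n' + 1) : ℕ) : ℝ) + 1 + Real.log ((m : ℝ) + 2))
        + Real.sqrt ((4 * rounds b : ℕ) : ℝ))
      ≤ 5 * c * (K + 1) * (((Nat.log 2 (Nat.log 2 n + 1) : ℕ) : ℝ) + 1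
        + Real.sqrt (Real.log ((b : ℝ) + 2))) := by
  have h1 := leaf_le hn hb hm
  have h2 := sqrt_four_rounds_le' b
  have h3 : 0 ≤ Real.sqrt (Real.log ((b : ℝ) + 2)) := Real.sqrt_nonneg _
  have h4 : (0 : ℝ) ≤ ((Nat.log 2 (Nat.log 2 n + 1) : ℕ) : ℝ) := Nat.cast_nonneg _
  have h5 := mul_le_mul_of_nonneg_left h1 hK
  have h6 : K * (((Nat.log 2 (Nat.log 2 n' + 1) : ℕ) : ℝ) + 1 + Real.log ((m : ℝ) + 2))
        + Real.sqrt ((4 * rounds b : ℕ) : ℝ)
      ≤ 5 * (K + 1) * (((Nat.log 2 (Nat.log 2 n + 1) : ℕ) : ℝ) + 1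
        + Real.sqrt (Real.log ((b : ℝ) + 2))) := by
    have h7 := mul_nonneg hK h3
    nlinarith
  have h8 := mul_le_mul_of_nonneg_left h6 hc
  linarith

end Vale.Agent.P235.R2.H105.Const
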