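import Vale.Agent.P235.R2.H802.Defs
import Vale.Agent.P235.H105.Hop

set_option linter.all false

/-! Deleting an edge with two different sides keeps a plane map plane. -/

namespace Vale.Agent.P235.R2.H105

open Equiv.Perm

/-- the permutation which bypasses `e` -/
def byp {α : Type} [DecidableEq α] (σ : Equiv.Perm α) (e : α) : Equiv.Perm α :=
  Equiv.swap e (σ e) * σ

/-- constant on cycles -/
theorem const_cycle' {α β : Type} {f : Equiv.Perm α} {c : α → β} (h : ∀ x, c (f x) = c x)
    {x y : α} (hxy : f.SameCycle x y) : c x = c y := by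
  have hs : ∀ (n : ℤ) (d : α), c ((f ^ n) d) = c d := by
    intro n
    induction n using Int.induction_on with
    | zero => intro d; rfl
    | succ n ih =>
      intro d
      rw [zpow_add_one, Equiv.Perm.mul_apply, ih, h]
    | pred n ih =>
      intro d
      have h3 := h (f⁻¹ d)
      rw [show f (f⁻¹ d) = d from Equiv.apply_symm_apply _ _] at h3
      rw [zpow_sub_one, Equiv.Perm.mul_apply, ih, ← h3]
  obtain ⟨n, hn⟩ := hxy
  rw [← hn, hs]

section byp

variable {α : Type} [DecidableEq α] {σ : Equiv.Perm α} {e : α}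

theorem byp_self : byp σ e e = e := by
  show Equiv.swap e (σ e) (σ e) = e
  exact Equiv.swap_apply_right _ _

theorem byp_pre {d : α} (h : σ d = e) : byp σ e d = σ e := by
  show Equiv.swap e (σ e) (σ d) = σ e
  rw [h]
  exact Equiv.swap_apply_left _ _

theorem byp_ne {d : α} (h1 : d ≠ e) (h2 : σ d ≠ e) : byp σ e d = σ d := by
  show Equiv.swap e (σ e) (σ d) = σ d
  exact Equiv.swap_apply_of_ne_of_ne h2 fun h => h1 (σ.injective h)

theorem byp_fix {d : α} (h1 : d ≠ e) (h2 : σ d = d) : byp σ e d = d := by
  rw [byp_ne h1 (by rwa [h2]), h2]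

/-- labels which are constant along the old permutation -/
theorem byp_label {β : Type} {c g : α → β} (h : ∀ y, c (σ y) = g y) (he : g e = c e) (y : α) :
    c (byp σ e y) = g y := by
  by_cases h1 : y = e
  · subst h1
    rw [byp_self, he]
  by_cases h2 : σ y = e
  · rw [byp_pre h2, h, he, ← h y, h2]
  · rw [byp_ne h1 h2, h]

theorem byp_same {x y : α} (h : σ.SameCycle x y) (hx : x ≠ e) (hy : y ≠ e) :
    (byp σ e).SameCycle x y := by
  set r : α → α := fun x => if x = e then σ e else x with hr
  have key : ∀ x, (byp σ e).SameCycle (r x) (r (σ x)) := by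
    intro x
    by_cases h1 : x = e
    · subst h1
      have : r (σ x) = σ x := by
        simp only [hr]
        split_ifs <;> rfl
      rw [this]
      simp only [hr, if_true]
      exact Equiv.Perm.SameCycle.refl _ _
    · have h2 : r x = x := if_neg h1
      rw [h2]
      by_cases h3 : σ x = e
      · have h4 : r (σ x) = σ e := if_pos h3
        rw [h4, ← byp_pre h3]
        exact ⟨1, by rw [zpow_one]⟩
      · have h4 : r (σ x) = σ x := if_neg h3
        rw [h4, ← byp_ne h1 h3]
        exact ⟨1, by rw [zpow_one]⟩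
  have hn : ∀ (n : ℤ) (d : α), (byp σ e).SameCycle (r d) (r ((σ ^ n) d)) := by
    intro n
    induction n using Int.induction_on with
    | zero => intro d; exact Equiv.Perm.SameCycle.refl _ _
    | succ n ih =>
      intro d
      rw [zpow_add_one, Equiv.Perm.mul_apply]
      exact (key d).trans (ih _)
    | pred n ih =>
      intro d
      have h3 := key (σ⁻¹ d)
      rw [show σ (σ⁻¹ d) = d from Equiv.apply_symm_apply _ _] at h3
      rw [zpow_sub_one, Equiv.Perm.mul_apply]
      exact h3.symm.trans (ih _)
  obtain ⟨n, rfl⟩ := h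
  have := hn n x
  rwa [show r x = x from if_neg hx, show r ((σ ^ n) x) = (σ ^ n) x from if_neg hy] at this

end byp

section del

variable {V : Type} {G : SimpleGraph V}

/-- darts of the smaller graph are darts -/
def up (e : G.Dart) (d : (G.deleteEdges {e.edge}).Dart) : G.Dart :=
  ⟨d.toProd, (SimpleGraph.deleteEdges_adj.1 d.adj).1⟩

theorem up_inj {e : G.Dart} : Function.Injective (up e) := by
  intro d d' h
  have h1 : (up e d).toProd = (up e d').toProd := congrArg _ h
  exact SimpleGraph.Dart.ext _ _ h1

theorem up_ne {e : G.Dart} (d : (G.deleteEdges {e.edge}).Dart) : up e d ≠ e := by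
  intro h
  have h1 : (up e d).edge = e.edge := congrArg _ h
  exact (SimpleGraph.deleteEdges_adj.1 d.adj).2 h1

theorem up_ne' {e : G.Dart} (d : (G.deleteEdges {e.edge}).Dart) : up e d ≠ e.symm := by
  intro h
  have h1 : (up e d).edge = e.symm.edge := congrArg _ h
  rw [e.edge_symm] at h1
  exact (SimpleGraph.deleteEdges_adj.1 d.adj).2 h1

theorem up_surj {e x : G.Dart} (h1 : x ≠ e) (h2 : x ≠ e.symm) : ∃ d, up e d = x := by
  refine ⟨⟨x.toProd, SimpleGraph.deleteEdges_adj.2 ⟨x.adj, fun h => ?_⟩⟩, rfl⟩
  rw [Set.mem_singleton_iff] at h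
  rcases (SimpleGraph.dart_edge_eq_iff x e).1 h with h | h
  · exact h1 h
  · exact h2 h

theorem symm_ne (e : G.Dart) : e.symm ≠ e := fun h => by
  have := congrArg (fun d : G.Dart => d.fst) h
  exact e.adj.ne this.symm

theorem fst_symm_ne (e : G.Dart) : e.symm.fst ≠ e.fst := fun h => e.adj.ne h.symm

theorem nb {G : SimpleGraph V} {a b : V} (w : G.Walk a b) (h : a ≠ b) : ∃ c, G.Adj a c := by
  cases w with
  | nil => exact absurd rfl h
  | cons ha _ => exact ⟨_, ha⟩

variable [Finite V] {σ : Equiv.Perm G.Dart}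

/-- deleting an edge with two different sides -/
theorem del_step (hσ : PlaneMap G σ) (e : G.Dart) (he : ¬ (faceNext σ).SameCycle e e.symm)
    (hc : (G.deleteEdges {e.edge}).Connected) :
    ∃ σ' : Equiv.Perm (G.deleteEdges {e.edge}).Dart, PlaneMap (G.deleteEdges {e.edge}) σ' ∧
      (∀ d d', σ (up e d) = up e d' → σ' d = d') ∧
      ∀ d₀, ∃ d₀', onFace σ d₀ ⊆ onFace σ' d₀' := by
  classical
  set G' := G.deleteEdges {e.edge} with hG'
  have hDart : Finite G.Dart := finite_dart
  have hDart' : Finite G'.Dart := finite_dart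
  set τ := byp σ e with hτ
  set ρ := byp τ e.symm with hρ
  have hne : e ≠ e.symm := (symm_ne e).symm
  have hρe : ρ e = e := byp_fix hne byp_self
  have hρe' : ρ e.symm = e.symm := byp_self
  have hρn : ∀ x, x ≠ e → ρ x ≠ e := fun x h h' => h (ρ.injective (h'.trans hρe.symm))
  have hρn' : ∀ x, x ≠ e.symm → ρ x ≠ e.symm := fun x h h' =>
    h (ρ.injective (h'.trans hρe'.symm))
  have hex : ∀ d : G'.Dart, ∃ d' : G'.Dart, up e d' = ρ (up e d) := fun d =>
    up_surj (hρn _ (up_ne d)) (hρn' _ (up_ne' d))
  choose f hf using hex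
  have hfi : Function.Injective f := by
    intro d d' h
    apply up_inj (e := e)
    apply ρ.injective
    rw [← hf, ← hf, h]
  set σ' : Equiv.Perm G'.Dart := Equiv.ofBijective f (Finite.injective_iff_bijective.1 hfi)
    with hσ'
  have hup : ∀ d, up e (σ' d) = ρ (up e d) := hf
  have hupf : ∀ d : G'.Dart, (up e d).fst = d.fst := fun _ => rfl
  have hups : ∀ d : G'.Dart, up e d.symm = (up e d).symm := fun _ => rfl
  -- rotation
  have hfst1 : ∀ x, (τ x).fst = x.fst :=
    fun x => byp_label (c := fun d : G.Dart => d.fst) (g := fun d : G.Dart => d.fst) hσ.fst rfl x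
  have hfst2 : ∀ x, (ρ x).fst = x.fst :=
    fun x => byp_label (c := fun d : G.Dart => d.fst) (g := fun d : G.Dart => d.fst) hfst1 rfl x
  have hfst : ∀ d, (σ' d).fst = d.fst := by
    intro d
    rw [← hupf, hup, hfst2, hupf]
  have hcyc : ∀ d d' : G'.Dart, d.fst = d'.fst → σ'.SameCycle d d' := by
    intro d d' h
    have h1 : σ.SameCycle (up e d) (up e d') := hσ.cyc _ _ h
    have h2 : ρ.SameCycle (up e d) (up e d') :=
      byp_same (byp_same h1 (up_ne d) (up_ne d')) (up_ne' d) (up_ne' d')
    obtain ⟨n, hn⟩ := h2.exists_nat_pow_eq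
    have h3 : ∀ n : ℕ, up e ((σ' ^ n) d) = (ρ ^ n) (up e d) := by
      intro n
      induction n with
      | zero => rfl
      | succ n ih => rw [pow_succ', pow_succ', Equiv.Perm.mul_apply, Equiv.Perm.mul_apply, hup, ih]
    refine ⟨n, ?_⟩
    rw [zpow_natCast]
    apply up_inj (e := e)
    rw [h3, hn]
  -- labels
  set F := Quotient (Equiv.Perm.SameCycle.setoid (faceNext σ)) with hF
  set F' := Quotient (Equiv.Perm.SameCycle.setoid (faceNext σ')) with hF'
  let q : G.Dart → F := Quotient.mk _
  have hqs : ∀ d d', q d = q d' ↔ (faceNext σ).SameCycle d d' := fun d d' => Quotient.eq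
  have hq : ∀ d, q (faceNext σ d) = q d := fun d => Quotient.sound ⟨-1, by simp⟩
  have hqe : q e ≠ q e.symm := fun h => he ((hqs _ _).1 h)
  set c : G.Dart → F := fun d => if q d = q e.symm then q e else q d with hcd
  have hce : c e = q e := if_neg hqe
  have hce' : c e.symm = q e := if_pos rfl
  have hcn : ∀ d, c d ≠ q e.symm := by
    intro d
    simp only [hcd]
    split_ifs with h
    · exact hqe
    · exact h
  have hcσ : ∀ y : G.Dart, c (σ y) = c y.symm := by
    intro y
    have h1 : q (σ y) = q y.symm := by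
      have := hq y.symm
      rwa [show faceNext σ y.symm = σ y from congrArg σ (SimpleGraph.Dart.symm_symm y)] at this
    simp only [hcd, h1]
  have hcτ : ∀ y : G.Dart, c (τ y) = c y.symm :=
    byp_label (g := fun y : G.Dart => c y.symm) hcσ (by show c e.symm = c e; rw [hce, hce'])
  have hcρ : ∀ y : G.Dart, c (ρ y) = c y.symm :=
    byp_label (g := fun y : G.Dart => c y.symm) hcτ (by
      show c e.symm.symm = c e.symm
      rw [SimpleGraph.Dart.symm_symm, hce, hce'])
  have hinv : ∀ d : G'.Dart, c (up e (faceNext σ' d)) = c (up e d) := by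
    intro d
    show c (up e (σ' d.symm)) = _
    rw [hup, hcρ, hups, SimpleGraph.Dart.symm_symm]
  -- a dart with a given label
  have hlab : ∀ f : F, f ≠ q e.symm → ∃ d : G'.Dart, c (up e d) = f := by
    intro f hf'
    induction f using Quotient.inductionOn with
    | h x =>
      change q x ≠ q e.symm at hf'
      have hcx : c x = q x := if_neg hf'
      by_cases h1 : x = e
      · -- take the next dart of the face
        have h2 : faceNext σ e ≠ e := by
          intro h
          have h3 := congrArg (fun d : G.Dart => d.fst) h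
          have h4 : (faceNext σ e).fst = e.symm.fst := hσ.fst e.symm
          exact fst_symm_ne e (h4.symm.trans h3)
        have h3 : faceNext σ e ≠ e.symm := by
          intro h
          apply hqe
          rw [← hq e, h]
        obtain ⟨d, hd⟩ := up_surj h2 h3
        refine ⟨d, ?_⟩
        rw [hd]
        show (if q (faceNext σ e) = q e.symm then q e else q (faceNext σ e)) = q x
        rw [hq, if_neg hqe, h1]
      · have h2 : x ≠ e.symm := fun h => hf' (by rw [h])
        obtain ⟨d, hd⟩ := up_surj h1 h2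
        exact ⟨d, by rw [hd, hcx]⟩
  let C : F' → {f : F // f ≠ q e.symm} := Quotient.lift (fun d => ⟨c (up e d), hcn _⟩)
    fun d d' h => Subtype.ext (R2.H105.const_cycle' (c := fun d => c (up e d)) hinv h)
  have hC : Function.Surjective C := by
    rintro ⟨f, hf'⟩
    obtain ⟨d, hd⟩ := hlab f hf'
    exact ⟨Quotient.mk _ d, Subtype.ext hd⟩
  have hFc : Nat.card F = Nat.card {f : F // f ≠ q e.symm} + 1 := by
    have : Fintype F := Fintype.ofFinite _
    rw [Nat.card_eq_fintype_card, Nat.card_eq_fintype_card, Fintype.card_subtype_compl,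
      Fintype.card_subtype_eq]
    have : 0 < Fintype.card F := Fintype.card_pos_iff.2 ⟨q e⟩
    omega
  have hE : Nat.card G.edgeSet = Nat.card G'.edgeSet + 1 := by
    have hfin : Finite G.edgeSet := Finite.of_surjective (fun d : G.Dart => H206.eOf d)
      H206.exists_dart
    have h1 : G'.edgeSet = G.edgeSet \ {e.edge} := SimpleGraph.edgeSet_deleteEdges _
    have h2 : e.edge ∈ G.edgeSet := e.edge_mem
    have h3 := Set.ncard_diff_singleton_add_one h2 (Set.toFinite G.edgeSet)
    rw [← h1] at h3
    exact h3.symm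
  have hle := Nat.card_le_card_of_surjective C hC
  have heul := hσ.euler
  have hplane : PlaneMap G' σ' := by
    refine SurfMap.plane hc ⟨hfst, hcyc, ?_⟩
    show Nat.card G'.edgeSet + 2 ≤ Nat.card V + Nat.card F' + 0
    have h' : Nat.card V + Nat.card F = Nat.card G.edgeSet + 2 := heul
    omega
  refine ⟨σ', hplane, ?_, ?_⟩
  · intro d d' h
    apply up_inj (e := e)
    rw [hup]
    have h1 : τ (up e d) = up e d' := by
      rw [hτ, byp_ne (up_ne d) (h ▸ up_ne d'), h]
    rw [hρ, byp_ne (up_ne' d) (h1 ▸ up_ne' d'), h1]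
  · -- faces
    have heq : Nat.card F' = Nat.card {f : F // f ≠ q e.symm} := by
      have h1 := hplane.euler
      have h' : Nat.card V + Nat.card F = Nat.card G.edgeSet + 2 := heul
      have h'' : Nat.card V + Nat.card F' = Nat.card G'.edgeSet + 2 := h1
      omega
    have hCi : Function.Injective C := ((Nat.bijective_iff_surjective_and_card C).2 ⟨hC, heq⟩).1
    have hsame : ∀ d d' : G'.Dart, c (up e d) = c (up e d') → (faceNext σ').SameCycle d d' := by
      intro d d' h
      have h1 : C (Quotient.mk _ d) = C (Quotient.mk _ d') := Subtype.ext h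
      exact Quotient.eq.1 (hCi h1)
    intro d₀
    obtain ⟨d₀', hd₀⟩ := hlab (c d₀) (hcn d₀)
    refine ⟨d₀', ?_⟩
    rintro v ⟨d, hd, rfl⟩
    have hcd' : c d = c d₀ := by
      have : q d₀ = q d := (hqs _ _).2 hd
      simp only [hcd, this]
    have hiso : ∀ x : G.Dart, (x = e ∨ x = e.symm) → σ x ≠ x := by
      intro x hx h
      have hxx : x.fst ≠ x.snd := x.adj.ne
      obtain ⟨w⟩ := hc.preconnected x.fst x.snd
      obtain ⟨b, hb⟩ := nb w hxx
      have h1 : σ.SameCycle x (up e ⟨(x.fst, b), hb⟩) := hσ.cyc _ _ rfl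
      have h2 : x = up e ⟨(x.fst, b), hb⟩ := h1.eq_of_left h
      rcases hx with hx | hx
      · exact up_ne _ (h2.symm.trans hx)
      · exact up_ne' _ (h2.symm.trans hx)
    -- a dart of the smaller graph at the same vertex
    have hrep : ∃ x : G'.Dart, x.fst = d.fst ∧ c (up e x) = c d := by
      by_cases h1 : d = e
      · subst h1
        have h3 : σ d ≠ d.symm := fun h => by
          have := congrArg (fun d : G.Dart => d.fst) h
          exact fst_symm_ne d (this.symm.trans (hσ.fst d))
        obtain ⟨x, hx⟩ := up_surj (hiso d (Or.inl rfl)) h3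
        refine ⟨x, ?_, ?_⟩
        · rw [← hupf, hx, hσ.fst]
        · rw [hx, hcσ, hce, hce']
      by_cases h2 : d = e.symm
      · subst h2
        have h3 : σ e.symm ≠ e := fun h => by
          have := congrArg (fun d : G.Dart => d.fst) h
          exact fst_symm_ne e ((hσ.fst e.symm).symm.trans this)
        obtain ⟨x, hx⟩ := up_surj h3 (hiso e.symm (Or.inr rfl))
        refine ⟨x, ?_, ?_⟩
        · rw [← hupf, hx, hσ.fst]
        · rw [hx, hcσ, SimpleGraph.Dart.symm_symm, hce, hce']
      obtain ⟨x, hx⟩ := up_surj h1 h2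
      exact ⟨x, by rw [← hupf, hx], by rw [hx]⟩
    obtain ⟨x, hx1, hx2⟩ := hrep
    exact ⟨x, hsame _ _ (hd₀.trans (hcd'.symm.trans hx2.symm)), hx1⟩

end del

/-- an edge which is not a bridge has two different sides -/
theorem two_sides {V : Type} [Finite V] {G : SimpleGraph V} {σ : Equiv.Perm G.Dart}
    (hG : G.Connected) (hσ : PlaneMap G σ) (e : G.Dart)
    (hc : (G.deleteEdges {e.edge}).Connected) : ¬ (faceNext σ).SameCycle e e.symm := by
  classical
  intro h
  have := Fintype.ofFinite V
  have hD : Finite G.Dart := finite_dart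
  have : Fintype G.Dart := Fintype.ofFinite _
  obtain ⟨w⟩ := hc.preconnected e.snd e.fst
  let w' : G.Walk e.snd e.fst := w.mapLe (SimpleGraph.deleteEdges_le _)
  let W : G.Walk e.fst e.fst := SimpleGraph.Walk.cons e.adj w'
  have h1 : H206.bd G (H206.chain W) = 0 := by
    rw [H206.bd_chain]
    exact H206.self_add' _
  have hs : SphereMap G σ := ⟨hσ.fst, hσ.cyc, hσ.euler⟩
  obtain ⟨s, hs⟩ := H206.exists_faces hG hs _ h1
  have h2 := hs e
  have h3 : (Quotient.mk _ e : Faces G σ) = Quotient.mk _ e.symm := Quotient.sound h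
  have h4 : H206.chain W (H206.eOf e) = 1 := by
    have h5 : w'.edges = w.edges := by
      simp [w']
    have h6 : e.edge ∉ w.edges := by
      intro h7
      have h8 := w.edges_subset_edgeSet h7
      rw [SimpleGraph.edgeSet_deleteEdges] at h8
      exact h8.2 rfl
    have h9 : W.edges.count e.edge = 1 := by
      show (s(e.fst, e.snd) :: w'.edges).count e.edge = 1
      rw [h5, show s(e.fst, e.snd) = e.edge from rfl, List.count_cons_self,
        List.count_eq_zero_of_not_mem h6]
    show ((W.edges.count e.edge : ℕ) : ZMod 2) = 1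
    rw [h9]
    rfl
  rw [h4, h3, CharTwo.add_self_eq_zero] at h2
  exact one_ne_zero h2

/-- 802's literal row -/
theorem rowDel : Tight.RowDel := by
  intro V _ G σ d₀ e s t hσ hs ht he hc
  obtain ⟨σ', h1, -, h2⟩ := del_step hσ e he hc
  obtain ⟨d₀', h3⟩ := h2 d₀
  exact ⟨σ', d₀', h1, h3 hs, h3 ht⟩

end Vale.Agent.P235.R2.H105
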